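import Vale.Agent.H29.P154.ChkI1

/-
Kernel check of the polynomial of inequality (I), orientation 2.
-/

namespace Vale.Agent.H29.P154

open Vale.Agent.H23.Potts Vale.Agent.H23.Potts4

theorem chkI_2 : PE.chkB (PE.subst (sbst 2) E8) 4 88 11 = true := by decide +kernel

end Vale.Agent.H29.P154
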