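import Vale.Agent.H29.P154.Poly
import Vale.Agent.H23.Potts4.PolyII

/-
The polynomial of the inequality (I) in the eight variables.
-/

namespace Vale.Agent.H29.P154

open Vale.Agent.H23.Potts Vale.Agent.H23.Potts4

/-- the polynomial in the eight variables -/
def E8 : PE 8 := fE (peOps 8) (PE.var 3) (PE.var 0) (PE.var 1) (PE.var 2)
  (PE.var 7) (PE.var 4) (PE.var 5) (PE.var 6)

theorem E8_bideg : PE.bideg kind8 E8 = some (10, 10) := by decide +kernel

end Vale.Agent.H29.P154
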