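import Vale.Agent.H29.P154.ISorted
import Vale.Agent.H23.Potts4.IIFinal

/-
The inequality (I) for four states, final form.
-/

namespace Vale.Agent.H29.P154

open Vale.Agent.H23.Potts Vale.Agent.H23.Potts4 Vale.Agent.H17.P154

/-- (I) for sorted vectors -/
theorem I_sorted {a b : Fin 4 → ℝ} (ha : ∀ i, 0 < a i) (hb : ∀ i, 0 < b i)
    (hsa : a 0 + a 1 + a 2 + a 3 = 4) (hsb : b 0 + b 1 + b 2 + b 3 = 4)
    (hA : Srt (fm1 a) (fm2 a) (fm3 a)) (hB : Srt (fm1 b) (fm2 b) (fm3 b)) :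
    24 * (vG (iS (fm1 a) (fm2 a) (fm3 a)) (iT (fm1 a) (fm2 a) (fm3 a))
          (iR (fm1 a) (fm2 a) (fm3 a)) *
        vH (iS (fm1 b) (fm2 b) (fm3 b)) (iT (fm1 b) (fm2 b) (fm3 b))
          (iR (fm1 b) (fm2 b) (fm3 b)) +
        vH (iS (fm1 a) (fm2 a) (fm3 a)) (iT (fm1 a) (fm2 a) (fm3 a))
          (iR (fm1 a) (fm2 a) (fm3 a)) *
        vG (iS (fm1 b) (fm2 b) (fm3 b)) (iT (fm1 b) (fm2 b) (fm3 b))
          (iR (fm1 b) (fm2 b) (fm3 b))) ≤
      2430000 * ∑ π : Equiv.Perm (Fin 4), persq 4 gamF (fun i => a i * b (π i)) := by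
  rw [sum_perm4 (persq 4 gamF) a b]
  have hsum := qQ_sum (fm1 a) (fm2 a) (fm3 a) (fm1 b) (fm2 b) (fm3 b)
  have o0 := four_termsI ha hsa (hb 0) (hb 1) (hb 2) (hb 3)
    (C1 := fm1 b) (C2 := fm2 b) (C3 := fm3 b) (by linarith)
    (by unfold fm1; ring) (by unfold fm2; ring) (by unfold fm3; ring) 0 hA hB
    rfl rfl rfl
  have o1 := four_termsI ha hsa (hb 0) (hb 1) (hb 3) (hb 2)
    (C1 := fm1 b) (C2 := fm3 b) (C3 := fm2 b) (by linarith)
    (by unfold fm1; ring) (by unfold fm3; ring) (by unfold fm2; ring) 1 hA hB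
    rfl rfl rfl
  have o2 := four_termsI ha hsa (hb 0) (hb 2) (hb 1) (hb 3)
    (C1 := fm2 b) (C2 := fm1 b) (C3 := fm3 b) (by linarith)
    (by unfold fm2; ring) (by unfold fm1; ring) (by unfold fm3; ring) 2 hA hB
    rfl rfl rfl
  have o3 := four_termsI ha hsa (hb 0) (hb 2) (hb 3) (hb 1)
    (C1 := fm2 b) (C2 := fm3 b) (C3 := fm1 b) (by linarith)
    (by unfold fm2; ring) (by unfold fm3; ring) (by unfold fm1; ring) 3 hA hB
    rfl rfl rfl
  have o4 := four_termsI ha hsa (hb 0) (hb 3) (hb 1) (hb 2)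
    (C1 := fm3 b) (C2 := fm1 b) (C3 := fm2 b) (by linarith)
    (by unfold fm3; ring) (by unfold fm1; ring) (by unfold fm2; ring) 4 hA hB
    rfl rfl rfl
  have o5 := four_termsI ha hsa (hb 0) (hb 3) (hb 2) (hb 1)
    (C1 := fm3 b) (C2 := fm2 b) (C3 := fm1 b) (by linarith)
    (by unfold fm3; ring) (by unfold fm2; ring) (by unfold fm1; ring) 5 hA hB
    rfl rfl rfl
  linarith

theorem vG_eq {a : Fin 4 → ℝ} (hs : a 0 + a 1 + a 2 + a 3 = 4) :
    vG (iS (fm1 a) (fm2 a) (fm3 a)) (iT (fm1 a) (fm2 a) (fm3 a)) (iR (fm1 a) (fm2 a) (fm3 a)) =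
      900 * gam4 (fun i => a i - 1) := by
  obtain ⟨h1, h2, h3⟩ := fm_sub_one a
  unfold gam4
  rw [S4_eq (w := fun i => a i - 1) (by linarith)]
  unfold T4 R4
  rw [h1, h2, h3]
  unfold vG iS iT iR
  ring

theorem vH_eq {a : Fin 4 → ℝ} (hs : a 0 + a 1 + a 2 + a 3 = 4) :
    vH (iS (fm1 a) (fm2 a) (fm3 a)) (iT (fm1 a) (fm2 a) (fm3 a)) (iR (fm1 a) (fm2 a) (fm3 a)) =
      2700 * h4 (fun i => a i - 1) := by
  obtain ⟨h1, h2, h3⟩ := fm_sub_one a
  unfold h4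
  rw [S4_eq (w := fun i => a i - 1) (by linarith)]
  unfold T4 R4
  rw [h1, h2, h3]
  unfold vH iS iT iR
  ring

theorem gam4_eq_gamF : gam4 = gamF := rfl

theorem ineq4I : Ineq4I := by
  intro a b ha hb ma mb
  obtain ⟨σ, s1, s2, s3⟩ := exists_sort4 a
  obtain ⟨τ, t1, t2, t3⟩ := exists_sort4 b
  have hsa := sum_of_mean ma
  have hsb := sum_of_mean mb
  have hsa' : a (σ 0) + a (σ 1) + a (σ 2) + a (σ 3) = 4 :=
    sum_of_mean (a := fun i => a (σ i)) (by rw [meanq_perm]; exact ma)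
  have hsb' : b (τ 0) + b (τ 1) + b (τ 2) + b (τ 3) = 4 :=
    sum_of_mean (a := fun i => b (τ i)) (by rw [meanq_perm]; exact mb)
  have hA := Srt_of_sorted (a := fun i => a (σ i)) (fun i => ha (σ i)) hsa' s1 s2 s3
  have hB := Srt_of_sorted (a := fun i => b (τ i)) (fun i => hb (τ i)) hsb' t1 t2 t3
  have key := I_sorted (a := fun i => a (σ i)) (b := fun i => b (τ i)) (fun i => ha (σ i))
    (fun i => hb (τ i)) hsa' hsb' hA hB
  rw [sum_perm_sort gamF_perm ha hb σ τ] at key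
  rw [vG_eq (a := fun i => a (σ i)) hsa', vG_eq (a := fun i => b (τ i)) hsb',
    vH_eq (a := fun i => a (σ i)) hsa', vH_eq (a := fun i => b (τ i)) hsb'] at key
  have za : (fun i => a i - 1) 0 + (fun i => a i - 1) 1 + (fun i => a i - 1) 2 +
      (fun i => a i - 1) 3 = 0 := by
    change a 0 - 1 + (a 1 - 1) + (a 2 - 1) + (a 3 - 1) = 0
    linarith
  have zb : (fun i => b i - 1) 0 + (fun i => b i - 1) 1 + (fun i => b i - 1) 2 +
      (fun i => b i - 1) 3 = 0 := by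
    change b 0 - 1 + (b 1 - 1) + (b 2 - 1) + (b 3 - 1) = 0
    linarith
  have g1 : gam4 (fun i => a (σ i) - 1) = gam4 (fun i => a i - 1) :=
    gamF_perm σ (fun i => a i - 1) za
  have g2 : gam4 (fun i => b (τ i) - 1) = gam4 (fun i => b i - 1) :=
    gamF_perm τ (fun i => b i - 1) zb
  have hh : ∀ (ρ : Equiv.Perm (Fin 4)) (w : Fin 4 → ℝ), w 0 + w 1 + w 2 + w 3 = 0 →
      h4 (fun i => w (ρ i)) = h4 w := by
    intro ρ w hw
    unfold h4
    rw [S4_perm, T4_perm ρ hw, R4_perm ρ hw]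
  have g3 : h4 (fun i => a (σ i) - 1) = h4 (fun i => a i - 1) := hh σ (fun i => a i - 1) za
  have g4 : h4 (fun i => b (τ i) - 1) = h4 (fun i => b i - 1) := hh τ (fun i => b i - 1) zb
  rw [g1, g2, g3, g4] at key
  change _ ≤ ∑ π : Equiv.Perm (Fin 4), persq 4 gamF (fun i => a i * b (π i))
  linarith

end Vale.Agent.H29.P154
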