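import Vale.Agent.H29.P154.MinorPoly

/-
Kernel checks for the intervals `[1, 2]` and `[2, 4]`.
-/

namespace Vale.Agent.H29.P154

open Vale.Agent.H23.Potts Vale.Agent.H23.Potts4

theorem chkM2 : PE.chkB (eMM 9 5 1 2 1) 2 68 15 = true := by decide +kernel
theorem chkM3 : PE.chkB (eMM 9 1 2 4 1) 2 68 15 = true := by decide +kernel

end Vale.Agent.H29.P154
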