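import Vale.Agent.H29.P154.MinorReal
import Vale.Agent.H29.P154.MinorChk

/-
The lower bound for the perspective functional on the simplex.
-/

namespace Vale.Agent.H29.P154

open Vale.Agent.H23.Potts Vale.Agent.H23.Potts4 Vale.Agent.H17.P154

theorem rMM_cone {Z : ℝ} (hZ : 0 < Z) (hZ4 : Z < 4) {p q r t : ℝ} (hp : 0 ≤ p) (hq : 0 ≤ q)
    (hr : 0 ≤ r) (ht : 0 ≤ t) (h1 : p + q + 3 * r + t = 1) :
    0 ≤ rMM Z (fS rOps (p + q + r) (p + r) (p + -r)) (fT rOps (p + q + r) (p + r) (p + -r))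
      (fR rOps (p + q + r) (p + r) (p + -r)) := by
  rcases lt_or_ge Z (1 / 2) with h | h
  · exact interval (by norm_num) chkM0 hp hq hr ht h1 (by push_cast; linarith)
      (by push_cast; linarith)
  rcases lt_or_ge Z 1 with h' | h'
  · exact interval (by norm_num) chkM1 hp hq hr ht h1 (by push_cast; linarith)
      (by push_cast; linarith)
  rcases lt_or_ge Z 2 with h'' | h''
  · exact interval (by norm_num) chkM2 hp hq hr ht h1 (by push_cast; linarith)
      (by push_cast; linarith)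
  · exact interval (by norm_num) chkM3 hp hq hr ht h1 (by push_cast; linarith)
      (by push_cast; linarith)

theorem rMM_nonneg {Z : ℝ} (hZ : 0 < Z) (hZ4 : Z < 4) {y : Fin 4 → ℝ} (hy : ∀ i, 0 ≤ y i)
    (my : meanq 4 y = 1) :
    0 ≤ rMM Z (3 * S4 (fun i => y i - 1)) (T4 (fun i => y i - 1)) (3 * R4 (fun i => y i - 1)) := by
  refine sorted_nonneg (F := fun w => rMM Z (3 * S4 w) (T4 w) (3 * R4 w)) ?_ ?_ y hy my
  · intro σ w hw
    rw [S4_perm, T4_perm σ hw, R4_perm σ hw]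
  · intro p q r t hp hq hr ht h1
    have key := rMM_cone hZ hZ4 hp hq (r := r / 3) (by positivity) ht (by linarith)
    rw [S4_cone, T4_cone, R4_cone]
    have e1 : fS rOps (p + q + r / 3) (p + r / 3) (p + -(r / 3)) =
        3 * (((p + q + r / 3) ^ 2 + (p + r / 3) ^ 2 + (p - r / 3) ^ 2) / 3) := by
      simp only [fS, sq, rOps]; ring
    have e2 : fT rOps (p + q + r / 3) (p + r / 3) (p + -(r / 3)) =
        (p + q + r / 3) * (p + r / 3) * (p - r / 3) := by
      simp only [fT, rOps]; ring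
    have e3 : fR rOps (p + q + r / 3) (p + r / 3) (p + -(r / 3)) =
        3 * (((p + q + r / 3) ^ 2 * (p + r / 3) ^ 2 + (p + q + r / 3) ^ 2 * (p - r / 3) ^ 2 +
          (p + r / 3) ^ 2 * (p - r / 3) ^ 2) / 3) := by
      simp only [fR, sq, rOps]; ring
    rw [e1, e2, e3] at key
    exact key

/-- The functional `γ`. -/
noncomputable def gamF (w : Fin 4 → ℝ) : ℝ :=
  T4 w - 83 / 100 * S4 w ^ 2 - 45 / 100 * R4 w + 52 / 100 * (S4 w * T4 w)

theorem gamF_eq (w : Fin 4 → ℝ) : 900 * gamF w = rGm (3 * S4 w) (T4 w) (3 * R4 w) := by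
  unfold gamF rGm; ring

/-- The bound in terms of the unnormalised invariants: `Z` is the mean, and
`S = 3 Z² S4`, `T = Z³ T4`, `R = 3 Z⁴ R4`. -/
theorem pers_bound {Z s t r g : ℝ} (hZ : 0 < Z) (h : 0 ≤ rMM Z s t r)
    (hg : 900 * g = rGm s t r) :
    fA rOps 1 Z (Z ^ 2 * s) (Z ^ 3 * t) (Z ^ 4 * r) / Z +
      fB rOps 1 Z (Z ^ 2 * s) (Z ^ 3 * t) (Z ^ 4 * r) ≤ 2430000 * (Z * g) := by
  have e : 2430000 * (Z * g) - (fA rOps 1 Z (Z ^ 2 * s) (Z ^ 3 * t) (Z ^ 4 * r) / Z +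
      fB rOps 1 Z (Z ^ 2 * s) (Z ^ 3 * t) (Z ^ 4 * r)) = 27 * (Z - 1) ^ 2 * Z * rMM Z s t r := by
    have h2 : 2430000 * (Z * g) = 2700 * Z * (900 * g) := by ring
    rw [h2, hg]
    simp only [fA, fB, fG, fC0, fC1, sb, sm, sq]
    simp only [rOps, rMM, rGm]
    push_cast
    field_simp
    ring
  have : 0 ≤ 27 * (Z - 1) ^ 2 * Z * rMM Z s t r := by positivity
  linarith

end Vale.Agent.H29.P154
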