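import Vale.Agent.H29.P154.E8
import Vale.Agent.H29.P154.Minor
import Vale.Agent.H23.Potts4.IIReal
import Vale.Agent.H23.Potts4.Sort4

/-
The inequality (I) in Fourier coordinates for one orientation.
-/

namespace Vale.Agent.H29.P154

open Vale.Agent.H23.Potts Vale.Agent.H23.Potts4 Vale.Agent.H17.P154

/-- the mean of the product -/
noncomputable def zz (a1 a2 a3 b1 b2 b3 : ℝ) : ℝ := fZ rOps 1 a1 a2 a3 1 b1 b2 b3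
/-- the terms divided by the mean -/
noncomputable def pA (a1 a2 a3 b1 b2 b3 : ℝ) : ℝ := fAt rOps 1 a1 a2 a3 1 b1 b2 b3
/-- the other terms -/
noncomputable def pB (a1 a2 a3 b1 b2 b3 : ℝ) : ℝ := fBt rOps 1 a1 a2 a3 1 b1 b2 b3
/-- the right side -/
noncomputable def qQ (a1 a2 a3 b1 b2 b3 : ℝ) : ℝ := fQ rOps 1 a1 a2 a3 1 b1 b2 b3
/-- the minorant -/
noncomputable def mn (a1 a2 a3 b1 b2 b3 : ℝ) : ℝ :=
  pA a1 a2 a3 b1 b2 b3 / zz a1 a2 a3 b1 b2 b3 + pB a1 a2 a3 b1 b2 b3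

theorem ev_E8 (a1 a2 a3 b1 b2 b3 : ℝ) :
    PE.evR ![a1, a2, a3, 1, b1, b2, b3, 1] E8 =
    ((zz a1 a2 a3 b1 (-b2) (-b3) * pA a1 a2 a3 b1 b2 b3 +
        zz a1 a2 a3 b1 b2 b3 * pA a1 a2 a3 b1 (-b2) (-b3)) *
        (zz a1 a2 a3 (-b1) b2 (-b3) * zz a1 a2 a3 (-b1) (-b2) b3) +
      (zz a1 a2 a3 (-b1) (-b2) b3 * pA a1 a2 a3 (-b1) b2 (-b3) +
        zz a1 a2 a3 (-b1) b2 (-b3) * pA a1 a2 a3 (-b1) (-b2) b3) *
        (zz a1 a2 a3 b1 b2 b3 * zz a1 a2 a3 b1 (-b2) (-b3))) +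
    (zz a1 a2 a3 b1 b2 b3 * zz a1 a2 a3 b1 (-b2) (-b3)) *
        (zz a1 a2 a3 (-b1) b2 (-b3) * zz a1 a2 a3 (-b1) (-b2) b3) *
      (((pB a1 a2 a3 b1 b2 b3 + pB a1 a2 a3 b1 (-b2) (-b3)) +
        (pB a1 a2 a3 (-b1) b2 (-b3) + pB a1 a2 a3 (-b1) (-b2) b3)) +
        qQ a1 a2 a3 b1 b2 b3) := rfl

theorem E8_real {a1 a2 a3 b1 b2 b3 : ℝ}
    (h : 0 ≤ PE.evR ![a1, a2, a3, 1, b1, b2, b3, 1] E8)
    (z0 : 0 < zz a1 a2 a3 b1 b2 b3) (z1 : 0 < zz a1 a2 a3 b1 (-b2) (-b3))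
    (z2 : 0 < zz a1 a2 a3 (-b1) b2 (-b3)) (z3 : 0 < zz a1 a2 a3 (-b1) (-b2) b3) :
    -qQ a1 a2 a3 b1 b2 b3 ≤ mn a1 a2 a3 b1 b2 b3 + mn a1 a2 a3 b1 (-b2) (-b3) +
      mn a1 a2 a3 (-b1) b2 (-b3) + mn a1 a2 a3 (-b1) (-b2) b3 := by
  rw [ev_E8] at h
  unfold mn
  generalize zz a1 a2 a3 b1 b2 b3 = Z0 at h z0 ⊢
  generalize zz a1 a2 a3 b1 (-b2) (-b3) = Z1 at h z1 ⊢
  generalize zz a1 a2 a3 (-b1) b2 (-b3) = Z2 at h z2 ⊢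
  generalize zz a1 a2 a3 (-b1) (-b2) b3 = Z3 at h z3 ⊢
  generalize pA a1 a2 a3 b1 b2 b3 = A0 at h ⊢
  generalize pA a1 a2 a3 b1 (-b2) (-b3) = A1 at h ⊢
  generalize pA a1 a2 a3 (-b1) b2 (-b3) = A2 at h ⊢
  generalize pA a1 a2 a3 (-b1) (-b2) b3 = A3 at h ⊢
  generalize pB a1 a2 a3 b1 b2 b3 = B0 at h ⊢
  generalize pB a1 a2 a3 b1 (-b2) (-b3) = B1 at h ⊢
  generalize pB a1 a2 a3 (-b1) b2 (-b3) = B2 at h ⊢
  generalize pB a1 a2 a3 (-b1) (-b2) b3 = B3 at h ⊢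
  generalize qQ a1 a2 a3 b1 b2 b3 = Q at h ⊢
  have hD : 0 < Z0 * Z1 * (Z2 * Z3) := mul_pos (mul_pos z0 z1) (mul_pos z2 z3)
  have e1 : A0 / Z0 + B0 + (A1 / Z1 + B1) + (A2 / Z2 + B2) + (A3 / Z3 + B3) + Q =
      (((Z1 * A0 + Z0 * A1) * (Z2 * Z3) + (Z3 * A2 + Z2 * A3) * (Z0 * Z1)) +
        Z0 * Z1 * (Z2 * Z3) * (B0 + B1 + (B2 + B3) + Q)) / (Z0 * Z1 * (Z2 * Z3)) := by
    field_simp
    ring
  have e2 : 0 ≤ A0 / Z0 + B0 + (A1 / Z1 + B1) + (A2 / Z2 + B2) + (A3 / Z3 + B3) + Q := by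
    rw [e1]
    exact div_nonneg h hD.le
  linarith

theorem gamF_perm (σ : Equiv.Perm (Fin 4)) (w : Fin 4 → ℝ) (h : w 0 + w 1 + w 2 + w 3 = 0) :
    gamF (fun i => w (σ i)) = gamF w := by
  unfold gamF
  rw [S4_perm, T4_perm σ h, R4_perm σ h]

theorem mean4' (x : Fin 4 → ℝ) : meanq 4 x = (x 0 + x 1 + x 2 + x 3) / 4 := by
  unfold meanq
  rw [Fin.sum_univ_four]
  norm_num

theorem pers_gam {F4 : Fin 4 → ℝ} {a : Fin 4 → ℝ} (ha : ∀ i, 0 < a i)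
    (hsa : a 0 + a 1 + a 2 + a 3 = 4) {c0 c1 c2 c3 : ℝ} (h0 : 0 < c0) (h1 : 0 < c1) (h2 : 0 < c2)
    (h3 : 0 < c3) {C1 C2 C3 : ℝ} (hF : F4 = ![a 0 * c0, a 1 * c1, a 2 * c2, a 3 * c3])
    (hs : c0 + c1 + c2 + c3 = 4) (e1 : C1 = (c0 + c1 - c2 - c3) / 4)
    (e2 : C2 = (c0 - c1 + c2 - c3) / 4) (e3 : C3 = (c0 - c1 - c2 + c3) / 4) :
    mn (fm1 a) (fm2 a) (fm3 a) C1 C2 C3 ≤ 2430000 * persq 4 gamF F4 ∧
      0 < zz (fm1 a) (fm2 a) (fm3 a) C1 C2 C3 := by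
  subst hF
  have a0 := ha 0
  have a1 := ha 1
  have a2 := ha 2
  have a3 := ha 3
  have hmean : meanq 4 ![a 0 * c0, a 1 * c1, a 2 * c2, a 3 * c3] =
      (a 0 * c0 + a 1 * c1 + a 2 * c2 + a 3 * c3) / 4 := by
    rw [mean4']
    rfl
  have hpos : 0 < (a 0 * c0 + a 1 * c1 + a 2 * c2 + a 3 * c3) / 4 := by
    positivity
  have hlt : (a 0 * c0 + a 1 * c1 + a 2 * c2 + a 3 * c3) / 4 < 4 := by
    have k0 : a 0 * c0 < 4 * c0 := mul_lt_mul_of_pos_right (by linarith) h0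
    have k1 : a 1 * c1 < 4 * c1 := mul_lt_mul_of_pos_right (by linarith) h1
    have k2 : a 2 * c2 < 4 * c2 := mul_lt_mul_of_pos_right (by linarith) h2
    have k3 : a 3 * c3 < 4 * c3 := mul_lt_mul_of_pos_right (by linarith) h3
    linarith
  have ea : a 3 = 4 - a 0 - a 1 - a 2 := by linarith
  have ec : c3 = 4 - c0 - c1 - c2 := by linarith
  have hZ : zz (fm1 a) (fm2 a) (fm3 a) C1 C2 C3 =
      (a 0 * c0 + a 1 * c1 + a 2 * c2 + a 3 * c3) / 4 := by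
    simp only [zz, fZ, rOps]
    unfold fm1 fm2 fm3
    rw [e1, e2, e3, ea, ec]
    ring
  refine ⟨?_, by rw [hZ]; exact hpos⟩
  unfold persq
  rw [hmean]
  set Z := (a 0 * c0 + a 1 * c1 + a 2 * c2 + a 3 * c3) / 4 with hZdef
  have h4 : a 0 * c0 + a 1 * c1 + a 2 * c2 + a 3 * c3 = 4 * Z := by rw [hZdef]; ring
  have hZ0 : Z ≠ 0 := hpos.ne'
  set y : Fin 4 → ℝ := fun i => (![a 0 * c0, a 1 * c1, a 2 * c2, a 3 * c3] : Fin 4 → ℝ) i / Z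
    with hy
  have y0 : y 0 = a 0 * c0 / Z := rfl
  have y1 : y 1 = a 1 * c1 / Z := rfl
  have y2 : y 2 = a 2 * c2 / Z := rfl
  have y3 : y 3 = a 3 * c3 / Z := rfl
  have ysum : y 0 + y 1 + y 2 + y 3 = 4 := by
    rw [y0, y1, y2, y3, ← add_div, ← add_div, ← add_div, h4, mul_div_cancel_right₀ _ hZ0]
  have ynn : ∀ i, 0 ≤ y i := by
    intro i
    fin_cases i
    · change 0 ≤ y 0; rw [y0]; positivity
    · change 0 ≤ y 1; rw [y1]; positivity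
    · change 0 ≤ y 2; rw [y2]; positivity
    · change 0 ≤ y 3; rw [y3]; positivity
  have my : meanq 4 y = 1 := by rw [mean4', ysum]; norm_num
  have hsum : (fun i => y i - 1) 0 + (fun i => y i - 1) 1 + (fun i => y i - 1) 2 +
      (fun i => y i - 1) 3 = 0 := by
    change y 0 - 1 + (y 1 - 1) + (y 2 - 1) + (y 3 - 1) = 0
    linarith
  have hMM := rMM_nonneg hpos hlt ynn my
  have f1 : fm1 (fun i => y i - 1) = (fm1 a + C1 + (fm2 a * C3 + fm3 a * C2)) / Z := by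
    change (y 0 - 1 + (y 1 - 1) - (y 2 - 1) - (y 3 - 1)) / 4 = _
    rw [y0, y1, y2, y3, e1, e2, e3]
    unfold fm1 fm2 fm3
    rw [ea, ec]
    ring
  have f2 : fm2 (fun i => y i - 1) = (fm2 a + C2 + (fm3 a * C1 + fm1 a * C3)) / Z := by
    change (y 0 - 1 - (y 1 - 1) + (y 2 - 1) - (y 3 - 1)) / 4 = _
    rw [y0, y1, y2, y3, e1, e2, e3]
    unfold fm1 fm2 fm3
    rw [ea, ec]
    ring
  have f3 : fm3 (fun i => y i - 1) = (fm3 a + C3 + (fm1 a * C2 + fm2 a * C1)) / Z := by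
    change (y 0 - 1 - (y 1 - 1) - (y 2 - 1) + (y 3 - 1)) / 4 = _
    rw [y0, y1, y2, y3, e1, e2, e3]
    unfold fm1 fm2 fm3
    rw [ea, ec]
    ring
  have key := pers_bound (g := gamF (fun i => y i - 1)) hpos hMM (gamF_eq _)
  have s1 : Z ^ 2 * (3 * S4 (fun i => y i - 1)) = fS rOps
      (fW rOps 1 (fm1 a) (fm2 a) (fm3 a) 1 C1 C2 C3)
      (fW rOps 1 (fm2 a) (fm3 a) (fm1 a) 1 C2 C3 C1)
      (fW rOps 1 (fm3 a) (fm1 a) (fm2 a) 1 C3 C1 C2) := by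
    rw [S4_eq hsum, f1, f2, f3]
    simp only [fS, fW, sq, rOps]
    field_simp
  have s2 : Z ^ 3 * T4 (fun i => y i - 1) = fT rOps
      (fW rOps 1 (fm1 a) (fm2 a) (fm3 a) 1 C1 C2 C3)
      (fW rOps 1 (fm2 a) (fm3 a) (fm1 a) 1 C2 C3 C1)
      (fW rOps 1 (fm3 a) (fm1 a) (fm2 a) 1 C3 C1 C2) := by
    unfold T4
    rw [f1, f2, f3]
    simp only [fT, fW, rOps]
    field_simp
  have s3 : Z ^ 4 * (3 * R4 (fun i => y i - 1)) = fR rOps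
      (fW rOps 1 (fm1 a) (fm2 a) (fm3 a) 1 C1 C2 C3)
      (fW rOps 1 (fm2 a) (fm3 a) (fm1 a) 1 C2 C3 C1)
      (fW rOps 1 (fm3 a) (fm1 a) (fm2 a) 1 C3 C1 C2) := by
    unfold R4
    rw [f1, f2, f3]
    simp only [fR, fW, sq, rOps]
    field_simp
    ring
  rw [s1, s2, s3] at key
  have hm : (1 : ℝ) = 1 * 1 := by norm_num
  have hfin : mn (fm1 a) (fm2 a) (fm3 a) C1 C2 C3 =
      fA rOps 1 Z (fS rOps (fW rOps 1 (fm1 a) (fm2 a) (fm3 a) 1 C1 C2 C3)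
      (fW rOps 1 (fm2 a) (fm3 a) (fm1 a) 1 C2 C3 C1)
      (fW rOps 1 (fm3 a) (fm1 a) (fm2 a) 1 C3 C1 C2))
      (fT rOps (fW rOps 1 (fm1 a) (fm2 a) (fm3 a) 1 C1 C2 C3)
      (fW rOps 1 (fm2 a) (fm3 a) (fm1 a) 1 C2 C3 C1)
      (fW rOps 1 (fm3 a) (fm1 a) (fm2 a) 1 C3 C1 C2))
      (fR rOps (fW rOps 1 (fm1 a) (fm2 a) (fm3 a) 1 C1 C2 C3)
      (fW rOps 1 (fm2 a) (fm3 a) (fm1 a) 1 C2 C3 C1)
      (fW rOps 1 (fm3 a) (fm1 a) (fm2 a) 1 C3 C1 C2)) / Z +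
      fB rOps 1 Z (fS rOps (fW rOps 1 (fm1 a) (fm2 a) (fm3 a) 1 C1 C2 C3)
      (fW rOps 1 (fm2 a) (fm3 a) (fm1 a) 1 C2 C3 C1)
      (fW rOps 1 (fm3 a) (fm1 a) (fm2 a) 1 C3 C1 C2))
      (fT rOps (fW rOps 1 (fm1 a) (fm2 a) (fm3 a) 1 C1 C2 C3)
      (fW rOps 1 (fm2 a) (fm3 a) (fm1 a) 1 C2 C3 C1)
      (fW rOps 1 (fm3 a) (fm1 a) (fm2 a) 1 C3 C1 C2))
      (fR rOps (fW rOps 1 (fm1 a) (fm2 a) (fm3 a) 1 C1 C2 C3)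
      (fW rOps 1 (fm2 a) (fm3 a) (fm1 a) 1 C2 C3 C1)
      (fW rOps 1 (fm3 a) (fm1 a) (fm2 a) 1 C3 C1 C2)) := by
    unfold mn
    rw [hZ]
    have hZ' : fZ rOps 1 (fm1 a) (fm2 a) (fm3 a) 1 C1 C2 C3 = Z := hZ
    have hmul : rOps.mul 1 1 = 1 := by simp [rOps]
    unfold pA pB fAt fBt
    simp only
    rw [hZ', hmul]
  rw [hfin]
  exact key

end Vale.Agent.H29.P154
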