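import Vale.Agent.H29.P154.IReal
import Vale.Agent.H29.P154.ChkI5
import Vale.Agent.H17.P154.Ferro4

/-
The inequality (I) for four states, summed over the permutations.
-/

namespace Vale.Agent.H29.P154

open Vale.Agent.H23.Potts Vale.Agent.H23.Potts4 Vale.Agent.H17.P154

/-- the orientation bound -/
theorem orientI (o : Fin 6) {A1 A2 A3 B1 B2 B3 : ℝ} (hA : Srt A1 A2 A3) (hB : Srt B1 B2 B3)
    {C1 C2 C3 : ℝ} (h1 : C1 = prm o B1 B2 B3 0) (h2 : C2 = prm o B1 B2 B3 1)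
    (h3 : C3 = prm o B1 B2 B3 2)
    (z0 : 0 < zz A1 A2 A3 C1 C2 C3) (z1 : 0 < zz A1 A2 A3 C1 (-C2) (-C3))
    (z2 : 0 < zz A1 A2 A3 (-C1) C2 (-C3)) (z3 : 0 < zz A1 A2 A3 (-C1) (-C2) C3) :
    -qQ A1 A2 A3 C1 C2 C3 ≤ mn A1 A2 A3 C1 C2 C3 + mn A1 A2 A3 C1 (-C2) (-C3) +
      mn A1 A2 A3 (-C1) C2 (-C3) + mn A1 A2 A3 (-C1) (-C2) C3 := by
  subst h1 h2 h3
  refine E8_real ?_ z0 z1 z2 z3
  fin_cases o
  · exact nonneg8 E8 10 10 E8_bideg 0 4 88 11 chkI_0 hA hB
  · exact nonneg8 E8 10 10 E8_bideg 1 4 88 11 chkI_1 hA hB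
  · exact nonneg8 E8 10 10 E8_bideg 2 4 88 11 chkI_2 hA hB
  · exact nonneg8 E8 10 10 E8_bideg 3 4 88 11 chkI_3 hA hB
  · exact nonneg8 E8 10 10 E8_bideg 4 4 88 11 chkI_4 hA hB
  · exact nonneg8 E8 10 10 E8_bideg 5 4 88 11 chkI_5 hA hB

theorem four_termsI {a : Fin 4 → ℝ} (ha : ∀ i, 0 < a i)
    (hsa : a 0 + a 1 + a 2 + a 3 = 4) {c0 c1 c2 c3 : ℝ} (h0 : 0 < c0) (h1 : 0 < c1) (h2 : 0 < c2)
    (h3 : 0 < c3) {C1 C2 C3 : ℝ} (hs : c0 + c1 + c2 + c3 = 4) (e1 : C1 = (c0 + c1 - c2 - c3) / 4)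
    (e2 : C2 = (c0 - c1 + c2 - c3) / 4) (e3 : C3 = (c0 - c1 - c2 + c3) / 4) (o : Fin 6)
    {B1 B2 B3 : ℝ} (hA : Srt (fm1 a) (fm2 a) (fm3 a)) (hB : Srt B1 B2 B3)
    (p1 : C1 = prm o B1 B2 B3 0) (p2 : C2 = prm o B1 B2 B3 1) (p3 : C3 = prm o B1 B2 B3 2) :
    -qQ (fm1 a) (fm2 a) (fm3 a) C1 C2 C3 ≤
    2430000 * (persq 4 gamF ![a 0 * c0, a 1 * c1, a 2 * c2, a 3 * c3] +
      persq 4 gamF ![a 0 * c1, a 1 * c0, a 2 * c3, a 3 * c2] +
      persq 4 gamF ![a 0 * c2, a 1 * c3, a 2 * c0, a 3 * c1] +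
      persq 4 gamF ![a 0 * c3, a 1 * c2, a 2 * c1, a 3 * c0]) := by
  obtain ⟨t0, z0⟩ := pers_gam (F4 := ![a 0 * c0, a 1 * c1, a 2 * c2, a 3 * c3]) ha hsa
    h0 h1 h2 h3 (C1 := C1) (C2 := C2) (C3 := C3) rfl hs e1 e2 e3
  obtain ⟨t1, z1⟩ := pers_gam (F4 := ![a 0 * c1, a 1 * c0, a 2 * c3, a 3 * c2]) ha hsa
    h1 h0 h3 h2 (C1 := C1) (C2 := -C2) (C3 := -C3) rfl (by linarith) (by linarith)
    (by linarith) (by linarith)
  obtain ⟨t2, z2⟩ := pers_gam (F4 := ![a 0 * c2, a 1 * c3, a 2 * c0, a 3 * c1]) ha hsa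
    h2 h3 h0 h1 (C1 := -C1) (C2 := C2) (C3 := -C3) rfl (by linarith) (by linarith)
    (by linarith) (by linarith)
  obtain ⟨t3, z3⟩ := pers_gam (F4 := ![a 0 * c3, a 1 * c2, a 2 * c1, a 3 * c0]) ha hsa
    h3 h2 h1 h0 (C1 := -C1) (C2 := -C2) (C3 := C3) rfl (by linarith) (by linarith)
    (by linarith) (by linarith)
  have ho := orientI o hA hB p1 p2 p3 z0 z1 z2 z3
  linarith

/-- the invariants -/
noncomputable def iS (x y z : ℝ) : ℝ := x ^ 2 + y ^ 2 + z ^ 2
/-- the invariants -/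
noncomputable def iT (x y z : ℝ) : ℝ := x * y * z
/-- the invariants -/
noncomputable def iR (x y z : ℝ) : ℝ := (x * y) ^ 2 + (y * z) ^ 2 + (z * x) ^ 2

/-- `900 γ` -/
noncomputable def vG (S T R : ℝ) : ℝ := 900 * T - 83 * S ^ 2 - 135 * R + 156 * (S * T)
/-- `2700 h` -/
noncomputable def vH (S T R : ℝ) : ℝ :=
  2700 - 5616 * S + 2187 * T - 276 * S ^ 2 + 24273 * R - 32715 * (S * T) + 5608 * S ^ 3 -
    23226 * (S * R) + 97794 * T ^ 2

/-- the vector functions -/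
noncomputable def uu (S x : ℝ) : ℝ := 3 * x ^ 2 - S
/-- the vector functions -/
noncomputable def ww (R y z : ℝ) : ℝ := 3 * (y * z) ^ 2 - R

/-- the correction -/
noncomputable def cvP (S T p d S' T' p' d' : ℝ) : ℝ :=
  (3 * p) * (-11711 * (3 * p') + 24371 * (S' * p') + 3072 * (3 * d') - 132 * (T' * (3 * p'))) +
  (S * p) * (24371 * (3 * p') - 116018 * (S' * p') - 52098 * (3 * d') +
    9531 * (T' * (3 * p'))) +
  (3 * d) * (3072 * (3 * p') - 52098 * (S' * p') - 66702 * (3 * d') + 38469 * (T' * (3 * p'))) +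
  (T * (3 * p)) * (-132 * (3 * p') + 9531 * (S' * p') + 38469 * (3 * d') +
    84006 * (T' * (3 * p')))

theorem rfS (x y z : ℝ) : fS rOps x y z = iS x y z := by
  simp only [fS, sq, rOps, iS]; ring
theorem rfT (x y z : ℝ) : fT rOps x y z = iT x y z := rfl
theorem rfR (x y z : ℝ) : fR rOps x y z = iR x y z := by
  simp only [fR, sq, rOps, iR]; ring
theorem rfG1 (S T R : ℝ) : fG rOps 1 S T R = vG S T R := by
  simp only [fG, sm, sq, rOps, vG]
  push_cast
  ring
theorem rfH1 (S T R : ℝ) : fH rOps 1 S T R = vH S T R := by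
  simp only [fH, sm, sq, rOps, vH]
  push_cast
  ring
theorem rfPk (u v w S T R u' v' w' S' T' R' : ℝ) :
    fPk rOps 1 u v w S T R 1 u' v' w' S' T' R' =
      cvP S T (uu S u) (ww R v w) S' T' (uu S' u') (ww R' v' w') := by
  simp only [fPk, fP, fF0, fF1, fF2, fF3, sm, sq, sb, rOps, cvP, uu, ww]
  push_cast
  ring

theorem qQ_eq (x y z u v w : ℝ) : qQ x y z u v w =
    -4 * (vG (iS x y z) (iT x y z) (iR x y z) * vH (iS u v w) (iT u v w) (iR u v w) +
      vH (iS x y z) (iT x y z) (iR x y z) * vG (iS u v w) (iT u v w) (iR u v w)) -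
    12 * (cvP (iS x y z) (iT x y z) (uu (iS x y z) x) (ww (iR x y z) y z)
        (iS u v w) (iT u v w) (uu (iS u v w) u) (ww (iR u v w) v w) +
      cvP (iS x y z) (iT x y z) (uu (iS x y z) y) (ww (iR x y z) z x)
        (iS u v w) (iT u v w) (uu (iS u v w) v) (ww (iR u v w) w u) +
      cvP (iS x y z) (iT x y z) (uu (iS x y z) z) (ww (iR x y z) x y)
        (iS u v w) (iT u v w) (uu (iS u v w) w) (ww (iR u v w) u v)) := by
  unfold qQ fQ
  simp only [rfS, rfT, rfR, rfG1, rfH1, rfPk]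
  simp only [sm, rOps]
  push_cast
  ring

/-- the sum over the six orientations -/
theorem qQ_sum (x y z u v w : ℝ) :
    qQ x y z u v w + qQ x y z u w v + qQ x y z v u w + qQ x y z v w u + qQ x y z w u v +
      qQ x y z w v u =
    -24 * (vG (iS x y z) (iT x y z) (iR x y z) * vH (iS u v w) (iT u v w) (iR u v w) +
      vH (iS x y z) (iT x y z) (iR x y z) * vG (iS u v w) (iT u v w) (iR u v w)) := by
  simp only [qQ_eq]
  have s1 : iS u w v = iS u v w := by unfold iS; ring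
  have s2 : iS v u w = iS u v w := by unfold iS; ring
  have s3 : iS v w u = iS u v w := by unfold iS; ring
  have s4 : iS w u v = iS u v w := by unfold iS; ring
  have s5 : iS w v u = iS u v w := by unfold iS; ring
  have t1 : iT u w v = iT u v w := by unfold iT; ring
  have t2 : iT v u w = iT u v w := by unfold iT; ring
  have t3 : iT v w u = iT u v w := by unfold iT; ring
  have t4 : iT w u v = iT u v w := by unfold iT; ring
  have t5 : iT w v u = iT u v w := by unfold iT; ring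
  have r1 : iR u w v = iR u v w := by unfold iR; ring
  have r2 : iR v u w = iR u v w := by unfold iR; ring
  have r3 : iR v w u = iR u v w := by unfold iR; ring
  have r4 : iR w u v = iR u v w := by unfold iR; ring
  have r5 : iR w v u = iR u v w := by unfold iR; ring
  rw [s1, s2, s3, s4, s5, t1, t2, t3, t4, t5, r1, r2, r3, r4, r5]
  have w1 : ww (iR u v w) w v = ww (iR u v w) v w := by unfold ww; ring
  have w2 : ww (iR u v w) u w = ww (iR u v w) w u := by unfold ww; ring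
  have w3 : ww (iR u v w) v u = ww (iR u v w) u v := by unfold ww; ring
  rw [w1, w2, w3]
  have k1 : uu (iS u v w) w = -uu (iS u v w) u - uu (iS u v w) v := by unfold uu iS; ring
  have k2 : ww (iR u v w) u v = -ww (iR u v w) v w - ww (iR u v w) w u := by unfold ww iR; ring
  rw [k1, k2]
  generalize iS x y z = S
  generalize iT x y z = T
  generalize iR x y z = R
  generalize iS u v w = S'
  generalize iT u v w = T'
  generalize uu S x = p1
  generalize uu S y = p2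
  generalize uu S z = p3
  generalize ww R y z = d1
  generalize ww R z x = d2
  generalize ww R x y = d3
  generalize uu S' u = p1'
  generalize uu S' v = p2'
  generalize ww (iR u v w) v w = d1'
  generalize ww (iR u v w) w u = d2'
  generalize iR u v w = R'
  unfold cvP
  ring

end Vale.Agent.H29.P154
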