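import Vale.Agent.H29.P154.Poly
import Vale.Agent.H23.Potts4.PolyII

/-
The polynomial certificate behind the lower bound for the perspective functional.
-/

namespace Vale.Agent.H29.P154

open Vale.Agent.H23.Potts Vale.Agent.H23.Potts4

section
variable {α : Type} (O : Ops α)

/-- coefficient of `Z^0` -/
def fA0 (m S T R : α) : α :=
  O.add (sm O 100 (fG O m S T R))
    (O.mul (O.mul m (sq O m)) (O.add (sm O 35739 (sq O m)) (sm O (-19062) S)))
/-- coefficient of `Z^1` -/
def fA1 (m S T R : α) : α :=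
  O.add (sm O 200 (fG O m S T R))
    (O.mul (sq O m) (O.add (O.mul m (O.add (sm O 144711 (sq O m)) (sm O (-150750) S)))
      (sm O 264339 T)))
/-- coefficient of `Z^2` -/
def fA2 (m S T R : α) : α :=
  O.add (sm O 300 (fG O m S T R))
    (O.mul m (O.add (O.mul m (O.add (O.mul m (O.add (sm O (-356427) (sq O m)) (sm O 395685 S)))
      (sm O (-1138527) T))) (O.add (sm O 3832 (sq O S)) (sm O 69537 R))))
/-- coefficient of `Z^3` -/
def fA3 (m S T R : α) : α :=
  O.add (O.mul m (O.add (O.mul m (O.add (O.mul m (O.add (sm O 179748 (sq O m))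
      (sm O (-216534) S))) (sm O 387486 T))) (O.add (sm O 33526 (sq O S)) (sm O (-2622) R))))
    (sm O (-70500) (O.mul S T))

/-- the whole polynomial in `Z = u / w` -/
def fMM (u w m S T R : α) : α :=
  O.add (O.mul (sq O w) (O.add (O.mul (fA0 O m S T R) w) (O.mul (fA1 O m S T R) u)))
    (O.mul (sq O u) (O.add (O.mul (fA2 O m S T R) w) (O.mul (fA3 O m S T R) u)))

/-- power -/
def fpw (a : α) : ℕ → α
  | 0 => O.cst 1
  | 1 => a
  | n + 2 => O.mul (fpw a (n + 1)) a

/-- with elevation factors -/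
def fEl (i j : ℕ) (s u w m a1 a2 a3 : α) : α :=
  O.mul (O.mul (fpw O m i) (fpw O s j))
    (fMM O u w m (fS O a1 a2 a3) (fT O a1 a2 a3) (fR O a1 a2 a3))

end

/-- mean in the cone coordinates -/
def cM : PE 5 := PE.add (PE.add (PE.var 0) (PE.var 1)) (PE.add (PE.mul (PE.cst 3) (PE.var 2)) (PE.var 3))
/-- Fourier coordinate -/
def c1 : PE 5 := PE.add (PE.add (PE.var 0) (PE.var 1)) (PE.var 2)
/-- Fourier coordinate -/
def c2 : PE 5 := PE.add (PE.var 0) (PE.var 2)
/-- Fourier coordinate -/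
def c3 : PE 5 := PE.add (PE.var 0) (PE.neg (PE.var 2))
/-- `1 + s` -/
def cs : PE 5 := PE.add (PE.cst 1) (PE.var 4)

/-- the expression for an interval `[lo/d, hi/d]` -/
def eMM (i j : ℕ) (lo hi d : ℤ) : PE 5 :=
  fEl (peOps 5) i j cs (PE.add (PE.cst lo) (PE.mul (PE.cst hi) (PE.var 4)))
    (PE.mul (PE.cst d) cs) cM c1 c2 c3

theorem chkM0 : PE.chkB (eMM 0 0 0 1 2) 2 64 6 = true := by decide +kernel
theorem chkM1 : PE.chkB (eMM 0 0 1 2 2) 2 64 6 = true := by decide +kernel

end Vale.Agent.H29.P154
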