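import Vale.Agent.H29.P154.MinorPoly
import Vale.Agent.H17.P154.Q4Cone

/-
The lower bound for the perspective functional, real version.
-/

namespace Vale.Agent.H29.P154

open Vale.Agent.H23.Potts Vale.Agent.H23.Potts4 Vale.Agent.H17.P154

/-- `900 γ` in terms of `S = Σ m²`, `T`, `R = Σ m² m²` -/
def rGm (S T R : ℝ) : ℝ := 900 * T - 83 * S ^ 2 - 135 * R + 156 * (S * T)

/-- the polynomial in `Z` -/
def rMM (Z S T R : ℝ) : ℝ :=
  (100 * rGm S T R + 35739 - 19062 * S) +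
    (200 * rGm S T R + 144711 - 150750 * S + 264339 * T) * Z +
    (300 * rGm S T R - 356427 + 395685 * S - 1138527 * T + 3832 * S ^ 2 + 69537 * R) * Z ^ 2 +
    (179748 - 216534 * S + 387486 * T + 33526 * S ^ 2 - 2622 * R - 70500 * (S * T)) * Z ^ 3

theorem rfG (S T R : ℝ) : fG rOps 1 S T R = rGm S T R := by
  simp only [fG, sm, sq, rOps, rGm]
  push_cast
  ring

theorem rfMM {u w Z : ℝ} (hw : w ≠ 0) (hZ : u = Z * w) (S T R : ℝ) :
    fMM rOps u w 1 S T R = w ^ 3 * rMM Z S T R := by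
  subst hZ
  simp only [fMM, fA0, fA1, fA2, fA3, rfG, sm, sq]
  simp only [rOps, rMM]
  push_cast
  ring

/-- real values of the expressions -/
theorem ev_fpw (v : Fin 5 → ℝ) (a : PE 5) : ∀ n, PE.evR v (fpw (peOps 5) a n) =
    (PE.evR v a) ^ n
  | 0 => by simp [fpw, peOps, PE.evR]
  | 1 => by simp [fpw]
  | n + 2 => by
    have ih := ev_fpw v a (n + 1)
    simp only [fpw, peOps, PE.evR]
    simp only [peOps] at ih
    rw [ih]
    ring

theorem ev_fMM (v : Fin 5 → ℝ) (u w m S T R : PE 5) :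
    PE.evR v (fMM (peOps 5) u w m S T R) = fMM rOps (PE.evR v u) (PE.evR v w) (PE.evR v m)
      (PE.evR v S) (PE.evR v T) (PE.evR v R) := rfl

theorem ev_fS (v : Fin 5 → ℝ) (a b c : PE 5) :
    PE.evR v (fS (peOps 5) a b c) = fS rOps (PE.evR v a) (PE.evR v b) (PE.evR v c) := rfl
theorem ev_fT (v : Fin 5 → ℝ) (a b c : PE 5) :
    PE.evR v (fT (peOps 5) a b c) = fT rOps (PE.evR v a) (PE.evR v b) (PE.evR v c) := rfl
theorem ev_fR (v : Fin 5 → ℝ) (a b c : PE 5) :
    PE.evR v (fR (peOps 5) a b c) = fR rOps (PE.evR v a) (PE.evR v b) (PE.evR v c) := rfl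

theorem interval {i j f b n : ℕ} {lo hi d : ℤ} (hd : 0 < d)
    (h : PE.chkB (eMM i j lo hi d) f b n = true) {p q r t Z : ℝ} (hp : 0 ≤ p) (hq : 0 ≤ q)
    (hr : 0 ≤ r) (ht : 0 ≤ t) (h1 : p + q + 3 * r + t = 1) (hZ0 : (lo : ℝ) ≤ d * Z)
    (hZ1 : (d : ℝ) * Z < hi) :
    0 ≤ rMM Z (fS rOps (p + q + r) (p + r) (p + -r)) (fT rOps (p + q + r) (p + r) (p + -r))
      (fR rOps (p + q + r) (p + r) (p + -r)) := by
  have hgap : 0 < (hi : ℝ) - d * Z := by linarith
  set s : ℝ := (d * Z - lo) / (hi - d * Z) with hs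
  have hs0 : 0 ≤ s := div_nonneg (by linarith) hgap.le
  have key := PE.nonneg_of_chkB _ f b n h ![p, q, r, t, s] (by
    intro m
    fin_cases m
    · exact hp
    · exact hq
    · exact hr
    · exact ht
    · exact hs0)
  have eM : PE.evR ![p, q, r, t, s] cM = 1 := by
    have : PE.evR ![p, q, r, t, s] cM = p + q + ((3 : ℤ) * r + t) := rfl
    rw [this]; push_cast; linarith
  have e1 : PE.evR ![p, q, r, t, s] c1 = p + q + r := rfl
  have e2 : PE.evR ![p, q, r, t, s] c2 = p + r := rfl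
  have e3 : PE.evR ![p, q, r, t, s] c3 = p + -r := rfl
  have es : PE.evR ![p, q, r, t, s] cs = 1 + s := by
    have : PE.evR ![p, q, r, t, s] cs = (1 : ℤ) + s := rfl
    rw [this]; push_cast; ring
  have ew : PE.evR ![p, q, r, t, s] (PE.mul (PE.cst d) cs) = d * (1 + s) := by
    have : PE.evR ![p, q, r, t, s] (PE.mul (PE.cst d) cs) = (d : ℝ) *
      PE.evR ![p, q, r, t, s] cs := rfl
    rw [this, es]
  have eu : PE.evR ![p, q, r, t, s] (PE.add (PE.cst lo) (PE.mul (PE.cst hi) (PE.var 4))) =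
      lo + hi * s := rfl
  have hsplit : PE.evR ![p, q, r, t, s] (eMM i j lo hi d) =
      (PE.evR ![p, q, r, t, s] (fpw (peOps 5) cM i) * PE.evR ![p, q, r, t, s] (fpw (peOps 5) cs j)) *
        PE.evR ![p, q, r, t, s] (fMM (peOps 5)
          (PE.add (PE.cst lo) (PE.mul (PE.cst hi) (PE.var 4))) (PE.mul (PE.cst d) cs) cM
          (fS (peOps 5) c1 c2 c3) (fT (peOps 5) c1 c2 c3) (fR (peOps 5) c1 c2 c3)) := rfl
  rw [hsplit, ev_fpw, ev_fpw, ev_fMM, ev_fS, ev_fT, ev_fR, eM, e1, e2, e3, es, ew, eu,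
    one_pow, one_mul] at key
  have hd' : (0 : ℝ) < d := by exact_mod_cast hd
  have hw : (d : ℝ) * (1 + s) ≠ 0 := by positivity
  have hu : (lo : ℝ) + hi * s = Z * (d * (1 + s)) := by
    rw [hs]
    field_simp
    ring
  rw [rfMM hw hu] at key
  have h2 : 0 < (1 + s) ^ j * ((d : ℝ) * (1 + s)) ^ 3 := by positivity
  rw [← mul_assoc] at key
  exact nonneg_of_mul_nonneg_right key h2

end Vale.Agent.H29.P154
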